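import Mathlib

/- A uniform lower bound for correlation sums of two finitely supported sequences. -/

namespace Vale.Agent.P131

open Finset

noncomputable def corr (W : ℕ) (a b : ℤ → ℂ) (k : ℤ) : ℂ :=
  ∑ n ∈ Icc (-(W : ℤ)) W, b n * a (n - k)

lemma corr_ne (W : ℕ) (a b : ℤ → ℂ) (ha : ∀ n, (W : ℤ) < |n| → a n = 0)
    (hb : ∀ n, (W : ℤ) < |n| → b n = 0) (n0 m : ℤ) (h0 : a n0 ≠ 0) (h1 : b m ≠ 0) :
    ∃ k, m - n0 ≤ k ∧ corr W a b k ≠ 0 := by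
  classical
  have ma : ∀ n, a n ≠ 0 → n ∈ Icc (-(W : ℤ)) W := fun n hn => by
    rw [mem_Icc, ← abs_le]; by_contra hc; exact hn (ha n (not_le.1 hc))
  have mb : ∀ n, b n ≠ 0 → n ∈ Icc (-(W : ℤ)) W := fun n hn => by
    rw [mem_Icc, ← abs_le]; by_contra hc; exact hn (hb n (not_le.1 hc))
  obtain ⟨n1, hn1, hmin⟩ := exists_min_image ((Icc (-(W : ℤ)) W).filter fun n => a n ≠ 0) id
    ⟨n0, mem_filter.2 ⟨ma _ h0, h0⟩⟩
  obtain ⟨p1, hp1, hmax⟩ := exists_max_image ((Icc (-(W : ℤ)) W).filter fun n => b n ≠ 0) id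
    ⟨m, mem_filter.2 ⟨mb _ h1, h1⟩⟩
  have e1 : n1 ≤ n0 := hmin _ (mem_filter.2 ⟨ma _ h0, h0⟩)
  have e2 : m ≤ p1 := hmax _ (mem_filter.2 ⟨mb _ h1, h1⟩)
  refine ⟨p1 - n1, by omega, ?_⟩
  unfold corr
  rw [sum_eq_single_of_mem p1 (mem_filter.1 hp1).1]
  · rw [sub_sub_cancel]
    exact mul_ne_zero (mem_filter.1 hp1).2 (mem_filter.1 hn1).2
  · intro n _ hn
    by_contra hc
    obtain ⟨c1, c2⟩ := mul_ne_zero_iff.1 hc
    have f1 : n ≤ p1 := hmax _ (mem_filter.2 ⟨mb _ c1, c1⟩)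
    have f2 : n1 ≤ n - (p1 - n1) := hmin _ (mem_filter.2 ⟨ma _ c2, c2⟩)
    omega

def Bd (W : ℕ) (A : ℝ) (a : ℤ → ℂ) : Prop := (∀ n, ‖a n‖ ≤ A) ∧ ∀ n, (W : ℤ) < |n| → a n = 0

lemma isCompact_bd (W : ℕ) (A : ℝ) : IsCompact {a | Bd W A a} := by
  have h : IsCompact (Set.pi Set.univ fun _ : ℤ => Metric.closedBall (0 : ℂ) A) :=
    isCompact_univ_pi fun _ => isCompact_closedBall _ _
  refine h.of_isClosed_subset ?_ fun a ha n _ => by simpa using ha.1 n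
  have : {a | Bd W A a} = (⋂ n, {a : ℤ → ℂ | ‖a n‖ ≤ A}) ∩
      ⋂ n, ⋂ (_ : (W : ℤ) < |n|), {a : ℤ → ℂ | a n = 0} := by
    ext a; simp [Bd]
  rw [this]
  refine (isClosed_iInter fun n => isClosed_le (by fun_prop) continuous_const).inter
    (isClosed_iInter fun n => isClosed_iInter fun _ => isClosed_eq (by fun_prop) continuous_const)

lemma exists_r (W : ℕ) (A : ℝ) (hA : 0 < A) (n0 m : ℤ) : ∃ r : ℕ, ∀ a b, Bd W A a → Bd W A b →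
    1 / A ≤ ‖a n0‖ → 1 / A ≤ ‖b m‖ → ∃ k, m - n0 ≤ k ∧ 1 / ((r : ℝ) + 1) < ‖corr W a b k‖ := by
  let C : Set ((ℤ → ℂ) × (ℤ → ℂ)) := ({a | Bd W A a} ×ˢ {a | Bd W A a}) ∩
    ({p | 1 / A ≤ ‖p.1 n0‖} ∩ {p | 1 / A ≤ ‖p.2 m‖})
  have hC : IsCompact C := ((isCompact_bd W A).prod (isCompact_bd W A)).inter_right
    ((isClosed_le continuous_const (by fun_prop)).inter (isClosed_le continuous_const (by fun_prop)))
  let U : ℕ → Set ((ℤ → ℂ) × (ℤ → ℂ)) := fun r =>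
    ⋃ k, ⋃ (_ : m - n0 ≤ k), {p | 1 / ((r : ℝ) + 1) < ‖corr W p.1 p.2 k‖}
  have hU : ∀ r, IsOpen (U r) := fun r => isOpen_iUnion fun k => isOpen_iUnion fun _ =>
    isOpen_lt continuous_const (by unfold corr; fun_prop)
  have hmono : Monotone U := by
    intro r r' hr p hp
    simp only [U, Set.mem_iUnion, Set.mem_setOf_eq] at hp ⊢
    obtain ⟨k, hk, h⟩ := hp
    refine ⟨k, hk, lt_of_le_of_lt ?_ h⟩
    have : (r : ℝ) ≤ r' := by exact_mod_cast hr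
    gcongr
  obtain ⟨r, hr⟩ := hC.elim_directed_cover U hU (by
    rintro ⟨a, b⟩ ⟨⟨ha, hb⟩, h1, h2⟩
    have hA' : 0 < 1 / A := by positivity
    obtain ⟨k, hk, hne⟩ := corr_ne W a b ha.2 hb.2 n0 m
      (norm_pos_iff.1 (hA'.trans_le h1)) (norm_pos_iff.1 (hA'.trans_le h2))
    obtain ⟨r, hr⟩ := exists_nat_one_div_lt (norm_pos_iff.2 hne)
    simp only [U, Set.mem_iUnion, Set.mem_setOf_eq]
    exact ⟨r, k, hk, hr⟩) (directed_of_isDirected_le hmono)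
  refine ⟨r, fun a b ha hb h1 h2 => ?_⟩
  have := hr (show (a, b) ∈ C from ⟨⟨ha, hb⟩, h1, h2⟩)
  simpa only [U, Set.mem_iUnion, Set.mem_setOf_eq, exists_prop] using this

lemma exists_kap (W : ℕ) (A : ℝ) : ∃ κ : ℝ, 0 < κ ∧ (0 < A → ∀ a b, Bd W A a → Bd W A b →
    ∀ n0 m, 1 / A ≤ ‖a n0‖ → 1 / A ≤ ‖b m‖ → ∃ k, m - n0 ≤ k ∧ κ < ‖corr W a b k‖) := by
  by_cases hA : 0 < A
  swap
  · exact ⟨1, one_pos, fun h => absurd h hA⟩
  choose r hr using exists_r W A hA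
  let R := (Icc (-(W : ℤ)) W ×ˢ Icc (-(W : ℤ)) W).sup fun p => r p.1 p.2
  refine ⟨1 / ((R : ℝ) + 1), by positivity, fun _ a b ha hb n0 m h1 h2 => ?_⟩
  have hA' : 0 < 1 / A := by positivity
  obtain ⟨k, hk, h⟩ := hr n0 m a b ha hb h1 h2
  refine ⟨k, hk, lt_of_le_of_lt ?_ h⟩
  have m1 : n0 ∈ Icc (-(W : ℤ)) W := by
    rw [mem_Icc, ← abs_le]; by_contra hc
    rw [ha.2 n0 (not_le.1 hc), norm_zero] at h1; linarith
  have m2 : m ∈ Icc (-(W : ℤ)) W := by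
    rw [mem_Icc, ← abs_le]; by_contra hc
    rw [hb.2 m (not_le.1 hc), norm_zero] at h2; linarith
  have : r n0 m ≤ R := le_sup (f := fun p : ℤ × ℤ => r p.1 p.2)
    (mem_product.2 ⟨m1, m2⟩ : (n0, m) ∈ _)
  have : (r n0 m : ℝ) ≤ R := by exact_mod_cast this
  gcongr

noncomputable def kap (W : ℕ) (A : ℝ) : ℝ := Classical.choose (exists_kap W A)

lemma kap_pos (W : ℕ) (A : ℝ) : 0 < kap W A := (Classical.choose_spec (exists_kap W A)).1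

lemma kap_spec (W : ℕ) (A : ℝ) (hA : 0 < A) (a b : ℤ → ℂ) (ha : Bd W A a) (hb : Bd W A b)
    (n0 m : ℤ) (h1 : 1 / A ≤ ‖a n0‖) (h2 : 1 / A ≤ ‖b m‖) :
    ∃ k, m - n0 ≤ k ∧ kap W A < ‖corr W a b k‖ :=
  (Classical.choose_spec (exists_kap W A)).2 hA a b ha hb n0 m h1 h2

end Vale.Agent.P131
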