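import Vale.Agent.P131.Wt

/- The base group and the choice of a translation. -/

namespace Vale.Agent.P131

open MeasureTheory Set Filter Topology
open scoped ENNReal symmDiff

instance nz (j : ℕ) : NeZero (2 * 4 ^ j) := ⟨by positivity⟩

abbrev XX : Type := (j : ℕ) → ZMod (2 * 4 ^ j)

noncomputable def mu : Measure XX := Measure.addHaarMeasure ⊤

instance : mu.IsAddHaarMeasure := by unfold mu; infer_instance

instance : IsProbabilityMeasure mu := ⟨by
  have := Measure.addHaarMeasure_self (G := XX) (K₀ := ⊤)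
  simpa [mu] using this⟩

lemma meas_coord (i : ℕ) (p : ZMod (2 * 4 ^ i) → Prop) : MeasurableSet {y : XX | p (y i)} :=
  (measurable_pi_apply i) (MeasurableSet.of_discrete (s := {u | p u}))

lemma mu_coord (i : ℕ) (a : ZMod (2 * 4 ^ i)) : mu {y : XX | y i = a} ≤ (2⁻¹ : ℝ≥0∞) ^ i := by
  classical
  have h1 : ∀ b, mu {y : XX | y i = b} = mu {y : XX | y i = a} := by
    intro b
    rw [← measure_preimage_add mu (Pi.single i (a - b)) {y : XX | y i = a}]
    congr 1
    ext y
    simp only [mem_setOf_eq, mem_preimage, Pi.add_apply, Pi.single_eq_same]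
    constructor
    · intro h; rw [h]; ring
    · intro h; linear_combination h
  have h2 := sum_measure_preimage_singleton (μ := mu) (Finset.univ : Finset (ZMod (2 * 4 ^ i)))
    (f := fun y : XX => y i) (fun b _ => meas_coord i (· = b))
  have h3 : ∀ b, mu ((fun y : XX => y i) ⁻¹' {b}) = mu {y : XX | y i = a} := h1
  simp only [h3, Finset.sum_const, Finset.card_univ, ZMod.card, nsmul_eq_mul, Finset.coe_univ,
    preimage_univ, measure_univ] at h2
  have h4 : (2 : ℝ≥0∞) ^ i * mu {y : XX | y i = a} ≤ 1 := by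
    rw [← h2]
    gcongr
    have : 2 ^ i ≤ 2 * 4 ^ i := by
      have := Nat.pow_le_pow_left (show 2 ≤ 4 by norm_num) i
      omega
    exact_mod_cast this
  rw [← ENNReal.inv_pow, ENNReal.le_inv_iff_mul_le, mul_comm]
  exact h4

lemma mu_small (i K : ℕ) : mu {y : XX | (y i).val < K} ≤ K * (2⁻¹ : ℝ≥0∞) ^ i := by
  have : {y : XX | (y i).val < K} ⊆
      ⋃ a ∈ Finset.range K, {y : XX | y i = (a : ZMod (2 * 4 ^ i))} := by
    intro y hy
    simp only [mem_iUnion, Finset.mem_range, mem_setOf_eq] at hy ⊢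
    exact ⟨_, hy, (ZMod.natCast_zmod_val _).symm⟩
  refine (measure_mono this).trans ((measure_biUnion_finset_le _ _).trans ?_)
  refine (Finset.sum_le_card_nsmul (Finset.range K)
    (fun a : ℕ => mu {y : XX | y i = (a : ZMod (2 * 4 ^ i))}) _ fun a _ => mu_coord i _).trans ?_
  simp

lemma tendsto_bad (K : ℕ) :
    Tendsto (fun j => mu {y : XX | ∃ i, j < i ∧ (y i).val < K}) atTop (𝓝 0) := by
  have h1 : ∑' i : ℕ, (K : ℝ≥0∞) * (2⁻¹ : ℝ≥0∞) ^ i ≠ ∞ := by
    rw [ENNReal.tsum_mul_left, ENNReal.tsum_geometric]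
    exact ENNReal.mul_ne_top (ENNReal.natCast_ne_top K) (by simp)
  refine tendsto_of_tendsto_of_tendsto_of_le_of_le tendsto_const_nhds
    (ENNReal.tendsto_sum_nat_add _ h1) (fun _ => zero_le) fun j => ?_
  have : {y : XX | ∃ i, j < i ∧ (y i).val < K} ⊆ ⋃ k, {y : XX | (y (k + j)).val < K} := by
    rintro y ⟨i, hi, h⟩
    obtain ⟨k, rfl⟩ : ∃ k, i = k + j := ⟨i - j, by omega⟩
    exact mem_iUnion.2 ⟨k, h⟩
  exact (measure_mono this).trans ((measure_iUnion_le _).trans
    (ENNReal.tsum_le_tsum fun k => mu_small _ _))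

lemma tendsto_transl {t : ℕ → XX} {t0 : XX} (ht : Tendsto t atTop (𝓝 t0)) {S : Set XX}
    (hS : MeasurableSet S) :
    Tendsto (fun j => mu (((· + t j) ⁻¹' S) ∆ ((· + t0) ⁻¹' S))) atTop (𝓝 0) := by
  let Φ : C(XX, C(XX, XX)) := ContinuousMap.curry ⟨fun p : XX × XX => p.2 + p.1, by fun_prop⟩
  exact tendsto_measure_symmDiff_preimage_nhds_zero (μ := mu) (ν := mu) (f := fun j => Φ (t j))
    (g := Φ t0) ((Φ.continuous.tendsto t0).comp ht)
    (.of_forall fun j => measurePreserving_add_right mu (t j)) (measurePreserving_add_right mu t0)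
    hS.nullMeasurableSet (measure_ne_top _ _)

lemma exists_overlap {S T : Set XX} (hS : MeasurableSet S) (hT : MeasurableSet T)
    (h1 : mu S ≠ 0) (h2 : mu T ≠ 0) : ∃ t, mu (T ∩ (· + t) ⁻¹' S) ≠ 0 := by
  by_contra hc
  push Not at hc
  let Q : Set (XX × XX) := {p | p.2 ∈ T ∧ p.2 + p.1 ∈ S}
  have hQ : MeasurableSet Q :=
    (measurable_snd hT).inter ((measurable_snd.add measurable_fst) hS)
  have e1 : mu.prod mu Q = 0 := by
    rw [Measure.prod_apply hQ]
    exact (lintegral_congr fun t => hc t).trans lintegral_zero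
  rw [Measure.prod_apply_symm hQ] at e1
  have e2 : ∀ y, mu ((fun t => (t, y)) ⁻¹' Q) = T.indicator (fun _ => mu S) y := by
    intro y
    by_cases hy : y ∈ T
    · rw [indicator_of_mem hy, ← measure_preimage_add mu y S]
      congr 1
      ext t; simp [Q, hy]
    · rw [indicator_of_notMem hy]
      convert measure_empty (μ := mu)
      ext t; simp [Q, hy]
  simp only [e2] at e1
  rw [lintegral_indicator_const hT] at e1
  exact mul_ne_zero h1 h2 e1

lemma val_add_half (j : ℕ) (u : ZMod (2 * 4 ^ j)) :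
    ((u + ((4 ^ j : ℕ) : ZMod (2 * 4 ^ j))).val < 4 ^ j ↔ 4 ^ j ≤ u.val) := by
  have h0 : 0 < 4 ^ j := by positivity
  have h1 := ZMod.val_lt u
  rw [ZMod.val_add, ZMod.val_natCast_of_lt (by omega)]
  by_cases h : 4 ^ j ≤ u.val
  · rw [Nat.mod_eq_sub_mod (by omega), Nat.mod_eq_of_lt (by omega)]; omega
  · rw [Nat.mod_eq_of_lt (by omega)]; omega

theorem exists_transl {S T : Set XX} (hS : MeasurableSet S) (hT : MeasurableSet T)
    (h1 : mu S ≠ 0) (h2 : mu T ≠ 0) (K j0 : ℕ) : ∃ j, j0 ≤ j ∧ ∃ t : XX,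
      (∀ i, j < i → t i = -(K : ZMod (2 * 4 ^ i))) ∧ t j = ((4 ^ j : ℕ) : ZMod (2 * 4 ^ j)) ∧
      mu {y | y ∈ T ∧ y + t ∈ S ∧ 4 ^ j ≤ (y j).val ∧ ∀ i, j < i → K ≤ (y i).val} ≠ 0 := by
  classical
  obtain ⟨t0, h0⟩ := exists_overlap hS hT h1 h2
  set Z := T ∩ (· + t0) ⁻¹' S with hZ
  have hZm : MeasurableSet Z := hT.inter (measurable_add_const t0 hS)
  let t : ℕ → XX := fun j i =>
    if i < j then t0 i else if i = j then ((4 ^ i : ℕ) : ZMod (2 * 4 ^ i)) else -(K : ZMod _)
  let e : ℕ → XX := fun j i => if i = j then ((4 ^ i : ℕ) : ZMod (2 * 4 ^ i)) else 0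
  have ht : Tendsto t atTop (𝓝 t0) := tendsto_pi_nhds.2 fun i =>
    tendsto_const_nhds.congr' (by
      filter_upwards [eventually_gt_atTop i] with j hj
      simp [t, hj])
  have he : Tendsto e atTop (𝓝 0) := tendsto_pi_nhds.2 fun i =>
    tendsto_const_nhds.congr' (by
      filter_upwards [eventually_gt_atTop i] with j hj
      simp [e, hj.ne])
  have hε : 0 < mu Z / 8 := ENNReal.div_pos h0 (by norm_num)
  obtain ⟨j, hj0, a1, a2, a3⟩ := ((eventually_ge_atTop j0).and
    (((tendsto_transl ht hS).eventually (gt_mem_nhds hε)).and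
    (((tendsto_transl he hZm).eventually (gt_mem_nhds hε)).and
    ((tendsto_bad K).eventually (gt_mem_nhds hε))))).exists
  refine ⟨j, hj0, t j, fun i hi => by simp [t, hi.ne', not_lt.2 hi.le], by simp [t], fun hz => ?_⟩
  set R : Set XX := {y | 4 ^ j ≤ (y j).val} with hR
  have b1 : mu (Z ∩ R) ≤ mu Z / 8 + mu Z / 8 := by
    calc mu (Z ∩ R) ≤ mu ({y | y ∈ T ∧ y + t j ∈ S ∧ 4 ^ j ≤ (y j).val ∧
            ∀ i, j < i → K ≤ (y i).val} ∪ ((((· + t j) ⁻¹' S) ∆ ((· + t0) ⁻¹' S)) ∪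
            {y : XX | ∃ i, j < i ∧ (y i).val < K})) := by
          refine measure_mono fun y hy => ?_
          by_cases c1 : y + t j ∈ S
          · by_cases c2 : ∀ i, j < i → K ≤ (y i).val
            · exact Or.inl ⟨hy.1.1, c1, hy.2, c2⟩
            · push Not at c2
              exact Or.inr (Or.inr c2)
          · exact Or.inr (Or.inl (Or.inr ⟨hy.1.2, c1⟩))
      _ ≤ _ := by
          refine (measure_union_le _ _).trans ?_
          rw [hz, zero_add]
          exact (measure_union_le _ _).trans (add_le_add a1.le a3.le)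
  have b2 : mu (Z \ R) ≤ mu (Z ∩ R) + mu Z / 8 := by
    calc mu (Z \ R) ≤ mu (((· + e j) ⁻¹' (Z ∩ R)) ∪ (((· + e j) ⁻¹' Z) ∆ ((· + 0) ⁻¹' Z))) := by
          refine measure_mono fun y hy => ?_
          by_cases c1 : y + e j ∈ Z
          · refine Or.inl ⟨c1, ?_⟩
            show 4 ^ j ≤ ((y + e j) j).val
            have : (y + e j) j = y j + ((4 ^ j : ℕ) : ZMod (2 * 4 ^ j)) := by simp [e]
            rw [this, ← not_lt, val_add_half]
            exact hy.2
          · exact Or.inr (Or.inr ⟨by simpa using hy.1, c1⟩)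
      _ ≤ _ := by
          refine (measure_union_le _ _).trans (add_le_add ?_ a2.le)
          rw [measure_preimage_add_right]
  have b3 : mu Z ≤ mu (Z ∩ R) + mu (Z \ R) := measure_le_inter_add_sdiff _ _ _
  have b4 : mu Z ≤ 5 * (mu Z / 8) := by
    calc mu Z ≤ (mu Z / 8 + mu Z / 8) + ((mu Z / 8 + mu Z / 8) + mu Z / 8) :=
          b3.trans (add_le_add b1 (b2.trans (add_le_add b1 le_rfl)))
      _ = _ := by ring
  have hfin := measure_ne_top mu Z
  have b5 := ENNReal.toReal_mono (ENNReal.mul_ne_top (by norm_num)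
    (ENNReal.div_ne_top hfin (by norm_num))) b4
  rw [ENNReal.toReal_mul, ENNReal.toReal_div] at b5
  have b6 := ENNReal.toReal_pos h0 hfin
  norm_num at b5
  linarith

end Vale.Agent.P131
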