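import Vale.Agent.P131.Meas

/- The operator and its commutant. -/

namespace Vale.Agent.P131

open MeasureTheory Set Filter Topology
open scoped ENNReal InnerProductSpace

abbrev Om : Type := XX × ℤ

noncomputable def nu : Measure Om := mu.prod Measure.count

instance : SFinite nu := by unfold nu; infer_instance

instance : nu.IsAddRightInvariant := by unfold nu; infer_instance

abbrev HH : Type := Lp ℂ 2 nu

def vl (y : XX) (i : ℕ) : ℕ := (y i).val

lemma vl_lt (y : XX) (j : ℕ) : vl y j < 2 * 4 ^ j := ZMod.val_lt _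

noncomputable def B (ω : Om) : ℝ := bet (vl ω.1) ω.2

lemma B_pos (ω : Om) : 0 < B ω := bet_pos _ _

lemma measurable_B : Measurable B := by
  refine measurable_from_prod_countable_left fun n => ?_
  show Measurable fun y : XX => ∏ j ∈ Finset.range n.natAbs, chi j (vl y j) n
  refine Finset.measurable_prod _ fun j _ => ?_
  exact (measurable_of_countable fun u : ZMod (2 * 4 ^ j) => chi j u.val n).comp
    (measurable_pi_apply j)

lemma mp (u : Om) : MeasurePreserving (· + u) nu nu := measurePreserving_add_right nu u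

lemma exists_op (a : Om → ℂ) (ha : Measurable a) (C : ℝ) (hC : ∀ ω, ‖a ω‖ ≤ C) (u : Om) :
    ∃ V : HH →L[ℂ] HH, ∀ F, V F =ᵐ[nu] fun ω => a ω * F (ω + u) := by
  have hm : ∀ F : HH, MemLp (fun ω => a ω * F ω) 2 nu := fun F =>
    (Lp.memLp F).of_le_mul (c := C) (ha.aestronglyMeasurable.mul (Lp.aestronglyMeasurable F))
      (.of_forall fun ω => by rw [norm_mul]; gcongr; exact hC ω)
  let M : HH →ₗ[ℂ] HH :=
    { toFun := fun F => (hm F).toLp _
      map_add' := fun F G => Lp.ext (by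
        filter_upwards [(hm (F + G)).coeFn_toLp, (hm F).coeFn_toLp, (hm G).coeFn_toLp,
          Lp.coeFn_add F G, Lp.coeFn_add ((hm F).toLp _) ((hm G).toLp _)] with ω h1 h2 h3 h4 h5
        rw [h1, h5, h4, Pi.add_apply, Pi.add_apply, h2, h3, mul_add])
      map_smul' := fun c F => Lp.ext (by
        filter_upwards [(hm (c • F)).coeFn_toLp, (hm F).coeFn_toLp,
          Lp.coeFn_smul c F, Lp.coeFn_smul c ((hm F).toLp _)] with ω h1 h2 h4 h5
        rw [h1, RingHom.id_apply, h5, h4, Pi.smul_apply, Pi.smul_apply, h2, smul_eq_mul,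
          smul_eq_mul]
        ring) }
  have hM : ∀ F, ‖M F‖ ≤ C * ‖F‖ := fun F => Lp.norm_le_mul_norm_of_ae_le_mul (by
    filter_upwards [(hm F).coeFn_toLp] with ω h1
    have : M F ω = a ω * F ω := h1
    rw [this, norm_mul]; gcongr; exact hC ω)
  refine ⟨(M.mkContinuous C hM).comp
    (Lp.compMeasurePreservingₗᵢ ℂ (· + u) (mp u)).toContinuousLinearMap, fun F => ?_⟩
  filter_upwards [(hm (Lp.compMeasurePreserving (· + u) (mp u) F)).coeFn_toLp,
    Lp.coeFn_compMeasurePreserving F (mp u)] with ω h1 h2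
  exact h1.trans (by rw [h2]; rfl)

noncomputable def rat (u ω : Om) : ℂ := ((B ω / B (ω + u) : ℝ) : ℂ)

lemma measurable_rat (u : Om) : Measurable (rat u) :=
  Complex.measurable_ofReal.comp (measurable_B.div (measurable_B.comp (measurable_add_const u)))

lemma norm_rat (u ω : Om) : ‖rat u ω‖ = B ω / B (ω + u) := by
  rw [rat, Complex.norm_real, Real.norm_of_nonneg (div_pos (B_pos _) (B_pos _)).le]

lemma exists_T : ∃ T : HH →L[ℂ] HH, ∀ F, T F =ᵐ[nu] fun ω => rat (0, -1) ω * F (ω + (0, -1)) := by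
  refine exists_op _ (measurable_rat _) 1 (fun ω => ?_) _
  rw [norm_rat, div_le_one (B_pos _)]
  have := bet_anti (vl_lt ω.1) ω.2
  simpa [B, sub_eq_add_neg] using this

noncomputable def TT : HH →L[ℂ] HH := Classical.choose exists_T

lemma TT_spec (F : HH) : TT F =ᵐ[nu] fun ω => rat (0, -1) ω * F (ω + (0, -1)) :=
  Classical.choose_spec exists_T F

lemma comm_TT (φ : XX → ℂ) (u : Om) (V : HH →L[ℂ] HH)
    (hV : ∀ F, V F =ᵐ[nu] fun ω => φ ω.1 * rat u ω * F (ω + u)) : V * TT = TT * V := by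
  ext1 F
  refine Lp.ext ?_
  filter_upwards [hV (TT F), (mp u).quasiMeasurePreserving.ae (TT_spec F), TT_spec (V F),
    (mp (0, -1)).quasiMeasurePreserving.ae (hV F)] with ω h1 h2 h3 h4
  show V (TT F) ω = TT (V F) ω
  rw [h1, h2, h3, h4, add_right_comm ω (0, -1) u]
  have e1 : (ω + ((0 : XX), (-1 : ℤ))).1 = ω.1 := by simp
  rw [e1]
  have b1 : ((B (ω + u) : ℝ) : ℂ) ≠ 0 := by exact_mod_cast (B_pos _).ne'
  have b2 : ((B (ω + (0, -1)) : ℝ) : ℂ) ≠ 0 := by exact_mod_cast (B_pos _).ne'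
  have b3 : ((B (ω + u + (0, -1)) : ℝ) : ℂ) ≠ 0 := by exact_mod_cast (B_pos _).ne'
  simp only [rat, add_right_comm ω (0, -1) u]
  push_cast
  field_simp

lemma TT_ne (c : ℂ) : TT ≠ c • (1 : HH →L[ℂ] HH) := by
  intro h
  have hs : MeasurableSet ((univ : Set XX) ×ˢ ({0} : Set ℤ)) := by measurability
  have hfin : nu ((univ : Set XX) ×ˢ ({0} : Set ℤ)) ≠ ∞ := by
    simp [nu, Measure.prod_prod]
  let F : HH := indicatorConstLp 2 hs hfin (1 : ℂ)
  have hF : F =ᵐ[nu] _ := indicatorConstLp_coeFn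
  have h1 : ∀ᵐ ω ∂nu, ω.2 ≠ 1 := by
    filter_upwards [TT_spec F, hF, (mp (0, -1)).quasiMeasurePreserving.ae hF,
      Lp.coeFn_smul c F] with ω h1 h2 h3 h4
    intro e
    rw [h] at h1
    have h5 : (c • F) ω = rat (0, -1) ω * F (ω + (0, -1)) := h1
    rw [h4, Pi.smul_apply, h2, h3, indicator_of_notMem (by simp [e]),
      indicator_of_mem (by simp [e])] at h5
    have h6 := norm_rat (0, -1) ω
    have h7 := div_pos (B_pos ω) (B_pos (ω + (0, -1)))
    rw [smul_zero, mul_one] at h5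
    rw [← h5, norm_zero] at h6
    linarith
  obtain ⟨y, hy⟩ := (Measure.ae_ae_of_ae_prod h1).exists
  exact Measure.ae_count_iff.1 hy 1 rfl

def Gd (F : HH) (r : ℕ) (n : ℤ) : Set XX :=
  {x | 1 / ((r : ℝ) + 1) ≤ ‖F (x, n)‖ ∧
    ∀ s : Finset ℤ, ∑ n ∈ s, ‖F (x, n)‖ ^ 2 ≤ ((r : ℝ) + 1) ^ 2}

lemma measurable_F (F : HH) : Measurable F := (Lp.stronglyMeasurable F).measurable

lemma meas_Gd (F : HH) (r : ℕ) (n : ℤ) : MeasurableSet (Gd F r n) := by
  have h : ∀ n, Measurable fun x : XX => ‖F (x, n)‖ := fun n =>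
    ((measurable_F F).comp measurable_prodMk_right).norm
  refine (measurableSet_le measurable_const (h n)).inter ?_
  show MeasurableSet {x : XX | ∀ s : Finset ℤ, _}
  rw [setOf_forall]
  exact MeasurableSet.iInter fun s => measurableSet_le
    (Finset.measurable_sum _ fun n _ => (h n).pow_const 2) measurable_const

lemma Gd_mono (F : HH) {r r' : ℕ} (h : r ≤ r') (n : ℤ) : Gd F r n ⊆ Gd F r' n := by
  have : (r : ℝ) ≤ r' := by exact_mod_cast h
  exact fun x hx => ⟨le_trans (by gcongr) hx.1, fun s => (hx.2 s).trans (by gcongr)⟩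

lemma exists_Gd (F : HH) (hF : F ≠ 0) : ∃ r n, mu (Gd F r n) ≠ 0 := by
  by_contra hc
  push Not at hc
  apply hF
  have h1 : ∀ᵐ x ∂mu, ∀ r n, x ∉ Gd F r n :=
    ae_all_iff.2 fun r => ae_all_iff.2 fun n => measure_eq_zero_iff_ae_notMem.1 (hc r n)
  have h2 : Integrable (fun ω => ‖F ω‖ ^ 2) nu :=
    (memLp_two_iff_integrable_sq_norm (Lp.aestronglyMeasurable F)).1 (Lp.memLp F)
  have h3 := Integrable.prod_right_ae h2
  refine Lp.ext (Filter.EventuallyEq.trans ?_ (Lp.coeFn_zero _ _ _).symm)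
  refine (Measure.ae_prod_iff_ae_ae (measurableSet_eq_fun (measurable_F F) measurable_zero)).2 ?_
  filter_upwards [h1, h3] with x hx hx'
  refine .of_forall fun n => ?_
  by_contra hne
  have hs : Summable fun n => ‖F (x, n)‖ ^ 2 := by
    simpa using integrable_count_iff.1 hx'
  obtain ⟨r1, hr1⟩ := exists_nat_one_div_lt (norm_pos_iff.2 hne)
  obtain ⟨r2, hr2⟩ := exists_nat_ge (∑' n, ‖F (x, n)‖ ^ 2)
  have a1 : (r1 : ℝ) ≤ (max r1 r2 : ℕ) := by exact_mod_cast le_max_left _ _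
  have a2 : (r2 : ℝ) ≤ (max r1 r2 : ℕ) := by exact_mod_cast le_max_right _ _
  refine hx (max r1 r2) n ⟨le_trans (by gcongr) hr1.le, fun s => ?_⟩
  refine (hs.sum_le_tsum s fun _ _ => by positivity).trans (hr2.trans (a2.trans ?_))
  have : (0 : ℝ) ≤ (max r1 r2 : ℕ) := Nat.cast_nonneg _
  nlinarith

lemma ae_fibre_zero (F G : HH) (h : ∀ A : HH →L[ℂ] HH, A * TT = TT * A → ⟪G, A F⟫_ℂ = 0)
    (D : Set XX) (hD : MeasurableSet D) (u : Om) (C : ℝ)
    (hC : ∀ ω : Om, ω.1 ∈ D → B ω / B (ω + u) ≤ C) :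
    ∀ᵐ y ∂mu, y ∈ D →
      ∑' n, (starRingEnd ℂ) (G (y, n)) * rat u (y, n) * F ((y, n) + u) = 0 := by
  have key : ∀ E : Set XX, MeasurableSet E → ∃ V : HH →L[ℂ] HH, ∀ F, V F =ᵐ[nu] fun ω =>
      (E ∩ D).indicator (fun _ => (1 : ℂ)) ω.1 * rat u ω * F (ω + u) := by
    intro E hE
    refine exists_op (fun ω => (E ∩ D).indicator (fun _ => (1 : ℂ)) ω.1 * rat u ω) (((measurable_const.indicator (hE.inter hD)).comp measurable_fst).mul
      (measurable_rat u)) (max C 0) (fun ω => ?_) u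
    by_cases hω : ω.1 ∈ E ∩ D
    · rw [indicator_of_mem hω, one_mul, norm_rat]
      exact (hC ω hω.2).trans (le_max_left _ _)
    · rw [indicator_of_notMem hω, zero_mul, norm_zero]
      exact le_max_right _ _
  let Φ : Om → ℂ := fun ω => D.indicator (fun _ => (1 : ℂ)) ω.1 *
    ((starRingEnd ℂ) (G ω) * rat u ω * F (ω + u))
  have key2 : ∀ E : Set XX, MeasurableSet E →
      Integrable (fun ω : Om => E.indicator (fun _ => (1 : ℂ)) ω.1 * Φ ω) nu ∧
      ∫ ω : Om, E.indicator (fun _ => (1 : ℂ)) ω.1 * Φ ω ∂nu = 0 := by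
    intro E hE
    obtain ⟨V, hV⟩ := key E hE
    have e : (fun ω => ⟪G ω, V F ω⟫_ℂ) =ᵐ[nu]
        fun ω : Om => E.indicator (fun _ => (1 : ℂ)) ω.1 * Φ ω := by
      filter_upwards [hV F] with ω h1
      rw [h1, RCLike.inner_apply]
      simp only [Φ]
      by_cases c1 : ω.1 ∈ E <;> by_cases c2 : ω.1 ∈ D <;> simp [c1, c2]
      ring
    refine ⟨(L2.integrable_inner G (V F)).congr e, ?_⟩
    rw [← integral_congr_ae e, ← L2.inner_def]
    exact h V (comm_TT _ u V hV)
  have hΦ : Integrable Φ nu := by simpa using (key2 univ MeasurableSet.univ).1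
  have hI := (Integrable.integral_prod_left hΦ).ae_eq_zero_of_forall_setIntegral_eq_zero (by
    intro E hE _
    have := key2 E hE
    rw [← this.2, nu, integral_prod _ this.1, ← integral_indicator hE]
    refine integral_congr_ae (.of_forall fun y => ?_)
    by_cases c : y ∈ E <;> simp [c])
  filter_upwards [hI, Integrable.prod_right_ae hΦ] with y h1 h2 hy
  rw [integral_countable h2] at h1
  simpa [Φ, hy] using h1

theorem core (F G : HH) (h : ∀ A : HH →L[ℂ] HH, A * TT = TT * A → ⟪G, A F⟫_ℂ = 0) :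
    F = 0 ∨ G = 0 := by
  by_contra hc
  push Not at hc
  obtain ⟨r1, n0, h1⟩ := exists_Gd F hc.1
  obtain ⟨r2, m, h2⟩ := exists_Gd G hc.2
  obtain ⟨j, hj, t, t1, t2, hz⟩ := exists_transl (meas_Gd F r1 n0) (meas_Gd G r2 m) h1 h2
    (n0.natAbs + m.natAbs) (r1 + r2 + n0.natAbs + m.natAbs)
  set K := n0.natAbs + m.natAbs with hK
  let D : Set XX := {y | 4 ^ j ≤ (y j).val ∧ ∀ i, j < i → K ≤ (y i).val}
  have hD : MeasurableSet D := by
    refine (meas_coord j fun u => 4 ^ j ≤ u.val).inter ?_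
    show MeasurableSet {y : XX | ∀ i, _}
    rw [setOf_forall]
    exact MeasurableSet.iInter fun i => meas_coord i fun u => j < i → K ≤ u.val
  have d1 : ∀ y ∈ D, ∀ i, j < i → vl y i = vl (y + t) i + K := by
    intro y hy i hi
    have a1 := hy.2 i hi
    have a2 := vl_lt y i
    unfold vl at *
    rw [Pi.add_apply, t1 i hi, ← sub_eq_add_neg, ZMod.val_sub, ZMod.val_natCast_of_lt (by omega)]
    · omega
    · rw [ZMod.val_natCast_of_lt (by omega)]; exact a1
  have d2 : ∀ y ∈ D, vl (y + t) j < 4 ^ j := by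
    intro y hy
    unfold vl
    rw [Pi.add_apply, t2, val_add_half]
    exact hy.1
  have hae : ∀ᵐ y ∂mu, ∀ k : ℤ, -(K : ℤ) ≤ k → y ∈ D →
      ∑' n, (starRingEnd ℂ) (G (y, n)) * rat (t, -k) (y, n) * F ((y, n) + (t, -k)) = 0 := by
    refine ae_all_iff.2 fun k => ?_
    by_cases hk : -(K : ℤ) ≤ k
    · filter_upwards [ae_fibre_zero F G h D hD (t, -k) (1 * PP j ^ 2) fun ω hω => by
        have := bet_ratio (vl_lt (ω.1 + t)) (vl_lt ω.1) (d1 _ hω) hk
          (chi_arrow (d2 _ hω) hω.1 ω.2 (ω.2 - k))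
        simpa [B, sub_eq_add_neg] using this] with y hy _ using hy
    · exact .of_forall fun _ h => absurd h hk
  obtain ⟨y, ⟨y1, y2, y3⟩, hy⟩ := Measure.exists_mem_of_measure_ne_zero_of_ae hz (ae_restrict_of_ae hae)
  have y1' := Gd_mono G (show r2 ≤ j by omega) m y1
  have y2' := Gd_mono F (show r1 ≤ j by omega) n0 y2
  refine fibre (vl_lt (y + t)) (vl_lt y) (d1 y y3) (d2 y y3) y3.1 (show K ≤ j by omega)
    (fun n => F (y + t, n)) (fun n => (starRingEnd ℂ) (G (y, n))) y2'.2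
    (by simpa using y1'.2) (n0 := n0) (m := m) (by rw [← Int.natCast_natAbs]; omega)
    (by rw [← Int.natCast_natAbs]; omega) (by omega) y2'.1 (by simpa using y1'.1) fun k hk => ?_
  have := hy k hk y3
  simpa [rat, B, sub_eq_add_neg] using this

end Vale.Agent.P131
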