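import Vale.Agent.P131.Comp

/- The weights and the fibrewise contradiction. -/

namespace Vale.Agent.P131

open Finset

noncomputable def dl (j : ℕ) (p : ℝ) : ℝ :=
  min 1 (kap (3 * 4 ^ j) ((j + 1) * p) / (p ^ 2 * (j + 1) ^ 2))

noncomputable def PP : ℕ → ℝ
  | 0 => 1
  | j + 1 => PP j * (dl j (PP j))⁻¹

noncomputable def del (j : ℕ) : ℝ := dl j (PP j)

lemma dl_pos (j : ℕ) {p : ℝ} (hp : 0 < p) : 0 < dl j p := by
  have := kap_pos (3 * 4 ^ j) ((j + 1) * p)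
  exact lt_min one_pos (by positivity)

lemma PP_pos (j : ℕ) : 0 < PP j := by
  induction j with
  | zero => exact one_pos
  | succ j ih => exact mul_pos ih (inv_pos.2 (dl_pos j ih))

lemma del_pos (j : ℕ) : 0 < del j := dl_pos j (PP_pos j)

lemma del_le (j : ℕ) : del j ≤ 1 := min_le_left _ _

lemma one_le_inv_del (j : ℕ) : 1 ≤ (del j)⁻¹ := (one_le_inv₀ (del_pos j)).2 (del_le j)

lemma PP_eq (j : ℕ) : PP j = ∏ i ∈ range j, (del i)⁻¹ := by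
  induction j with
  | zero => rfl
  | succ j ih => rw [prod_range_succ, ← ih]; rfl

lemma del_kap (j : ℕ) :
    del j * PP j ^ 2 * (j + 1) ^ 2 ≤ kap (3 * 4 ^ j) ((j + 1) * PP j) := by
  have h : del j ≤ kap (3 * 4 ^ j) ((j + 1) * PP j) / (PP j ^ 2 * (j + 1) ^ 2) := min_le_right _ _
  have := PP_pos j
  rw [le_div_iff₀ (by positivity)] at h
  linarith

noncomputable def chi (j v : ℕ) (n : ℤ) : ℝ :=
  if v < 4 ^ j then (if -(4 : ℤ) ^ j - v ≤ n then 1 else (del j)⁻¹)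
  else (if 3 * (4 : ℤ) ^ j - v ≤ n then del j else 1)

lemma chi_le (j v : ℕ) (n : ℤ) : chi j v n ≤ (del j)⁻¹ := by
  have := one_le_inv_del j
  have := del_le j
  unfold chi; split_ifs <;> linarith

lemma le_chi (j v : ℕ) (n : ℤ) : del j ≤ chi j v n := by
  have := one_le_inv_del j
  have := del_le j
  unfold chi; split_ifs <;> linarith

lemma chi_pos (j v : ℕ) (n : ℤ) : 0 < chi j v n := (del_pos j).trans_le (le_chi j v n)

lemma chi_one {j v : ℕ} {n : ℤ} (hv : v < 2 * 4 ^ j) (hn : |n| < 4 ^ j) : chi j v n = 1 := by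
  have hv' : (v : ℤ) < 2 * 4 ^ j := by exact_mod_cast hv
  rw [abs_lt] at hn
  unfold chi
  split_ifs <;> first | rfl | omega

lemma chi_high {j v K : ℕ} {n k : ℤ} (hk : -(K : ℤ) ≤ k) :
    chi j (v + K) n ≤ chi j v (n - k) := by
  have := one_le_inv_del j
  have := del_le j
  unfold chi
  push_cast
  split_ifs <;> first | linarith | omega

noncomputable def bet (x : ℕ → ℕ) (n : ℤ) : ℝ := ∏ j ∈ range n.natAbs, chi j (x j) n

lemma bet_pos (x : ℕ → ℕ) (n : ℤ) : 0 < bet x n := prod_pos fun _ _ => chi_pos _ _ _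

lemma abs_lt_pow (n : ℤ) {j : ℕ} (h : n.natAbs ≤ j) : |n| < 4 ^ j := by
  have : j < 4 ^ j := Nat.lt_pow_self (by norm_num)
  have h2 : n.natAbs < 4 ^ j := by omega
  rw [← Int.natCast_natAbs]; exact_mod_cast h2

lemma bet_eq {x : ℕ → ℕ} (hx : ∀ j, x j < 2 * 4 ^ j) (n : ℤ) (R : ℕ) (h : |n| < 4 ^ R) :
    bet x n = ∏ j ∈ range R, chi j (x j) n := by
  have h1 : bet x n = ∏ j ∈ range (max R n.natAbs), chi j (x j) n := by
    refine prod_subset (range_mono (le_max_right _ _)) fun j _ hj => chi_one (hx j) ?_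
    exact abs_lt_pow n (by simpa using hj)
  have h2 : ∏ j ∈ range R, chi j (x j) n = ∏ j ∈ range (max R n.natAbs), chi j (x j) n := by
    refine prod_subset (range_mono (le_max_left _ _)) fun j _ hj => chi_one (hx j) ?_
    exact h.trans_le (pow_le_pow_right₀ (by norm_num) (by simpa using hj))
  rw [h1, h2]

lemma low_le (x : ℕ → ℕ) (n : ℤ) (j : ℕ) : ∏ i ∈ range j, chi i (x i) n ≤ PP j := by
  rw [PP_eq]
  exact prod_le_prod (fun i _ => (chi_pos _ _ _).le) fun i _ => chi_le _ _ _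

lemma le_low (x : ℕ → ℕ) (n : ℤ) (j : ℕ) : 1 / PP j ≤ ∏ i ∈ range j, chi i (x i) n := by
  rw [PP_eq, prod_inv_distrib, one_div, inv_inv]
  exact prod_le_prod (fun i _ => (del_pos _).le) fun i _ => le_chi _ _ _

lemma bet_anti {x : ℕ → ℕ} (hx : ∀ j, x j < 2 * 4 ^ j) (n : ℤ) : bet x n ≤ bet x (n - 1) := by
  rw [bet_eq hx n (max n.natAbs (n - 1).natAbs) (abs_lt_pow _ (le_max_left _ _)),
    bet_eq hx (n - 1) (max n.natAbs (n - 1).natAbs) (abs_lt_pow _ (le_max_right _ _))]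
  exact prod_le_prod (fun i _ => (chi_pos _ _ _).le) fun i _ =>
    chi_high (K := 0) (by norm_num)

lemma bet_ratio {x y : ℕ → ℕ} (hx : ∀ j, x j < 2 * 4 ^ j) (hy : ∀ j, y j < 2 * 4 ^ j)
    {j K : ℕ} (hxy : ∀ i, j < i → y i = x i + K) {n k : ℤ} (hk : -(K : ℤ) ≤ k) {c : ℝ}
    (hc : chi j (y j) n ≤ c * chi j (x j) (n - k)) :
    bet y n / bet x (n - k) ≤ c * PP j ^ 2 := by
  rw [div_le_iff₀ (bet_pos _ _)]
  set R := max (j + 1) (max n.natAbs (n - k).natAbs) with hR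
  rw [bet_eq hy n R (abs_lt_pow _ (by omega)), bet_eq hx (n - k) R (abs_lt_pow _ (by omega)),
    ← prod_range_mul_prod_Ico _ (show j + 1 ≤ R by omega),
    ← prod_range_mul_prod_Ico _ (show j + 1 ≤ R by omega), prod_range_succ, prod_range_succ]
  have h1 := low_le y n j
  have h2 := le_low x (n - k) j
  have h3 : ∏ i ∈ Ico (j + 1) R, chi i (y i) n ≤ ∏ i ∈ Ico (j + 1) R, chi i (x i) (n - k) :=
    prod_le_prod (fun i _ => (chi_pos _ _ _).le) fun i hi => by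
      rw [hxy i (by have := (mem_Ico.1 hi).1; omega)]; exact chi_high hk
  have h4 : 0 ≤ ∏ i ∈ Ico (j + 1) R, chi i (y i) n := prod_nonneg fun i _ => (chi_pos _ _ _).le
  have hP := PP_pos j
  have h5 := chi_pos j (y j) n
  have h6 := chi_pos j (x j) (n - k)
  have hc0 : 0 ≤ c := by
    by_contra hneg
    have := mul_neg_of_neg_of_pos (not_le.1 hneg) h6
    linarith
  have h7 : PP j ≤ PP j ^ 2 * ∏ i ∈ range j, chi i (x i) (n - k) := by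
    calc PP j = PP j ^ 2 * (1 / PP j) := by field_simp
      _ ≤ _ := by gcongr
  calc _ ≤ PP j * (c * chi j (x j) (n - k)) * ∏ i ∈ Ico (j + 1) R, chi i (x i) (n - k) := by
        gcongr
    _ ≤ (PP j ^ 2 * ∏ i ∈ range j, chi i (x i) (n - k)) * (c * chi j (x j) (n - k)) *
        ∏ i ∈ Ico (j + 1) R, chi i (x i) (n - k) := by
        have := h4.trans h3
        gcongr
    _ = _ := by ring

lemma bet_win {x : ℕ → ℕ} (hx : ∀ j, x j < 2 * 4 ^ j) {j : ℕ} {n : ℤ} (hn : |n| ≤ 3 * 4 ^ j)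
    (h1 : chi j (x j) n = 1) : 1 / PP j ≤ bet x n ∧ bet x n ≤ PP j := by
  have : (0 : ℤ) < 4 ^ j := by positivity
  rw [bet_eq hx n (j + 1) (by rw [pow_succ]; omega), prod_range_succ, h1, mul_one]
  exact ⟨le_low _ _ _, low_le _ _ _⟩

lemma chi_arrow {j u v : ℕ} (hu : u < 4 ^ j) (hv : 4 ^ j ≤ v) (n n' : ℤ) :
    chi j v n ≤ 1 * chi j u n' := by
  have := one_le_inv_del j
  have := del_le j
  unfold chi
  rw [if_pos hu, if_neg (by omega)]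
  split_ifs <;> linarith

lemma chi_arrow' {j u v : ℕ} (hu : u < 4 ^ j) (hv : 4 ^ j ≤ v) (n n' : ℤ)
    (h : ¬ (-(4 : ℤ) ^ j - u ≤ n' ∧ n < 3 * (4 : ℤ) ^ j - v)) :
    chi j v n ≤ del j * chi j u n' := by
  have h1 := one_le_inv_del j
  have h2 := del_le j
  have h3 := del_pos j
  have h4 : del j * (del j)⁻¹ = 1 := mul_inv_cancel₀ h3.ne'
  unfold chi
  rw [if_pos hu, if_neg (by omega)]
  split_ifs <;> first | linarith | omega

noncomputable def wa (x : ℕ → ℕ) (j : ℕ) (f : ℤ → ℂ) (n : ℤ) : ℂ :=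
  if -(4 : ℤ) ^ j - x j ≤ n ∧ n ≤ 3 * 4 ^ j then f n / (bet x n : ℂ) else 0

noncomputable def wb (y : ℕ → ℕ) (j : ℕ) (h : ℤ → ℂ) (n : ℤ) : ℂ :=
  if -(3 * 4 ^ j) ≤ n ∧ n < 3 * (4 : ℤ) ^ j - y j then h n * (bet y n : ℂ) else 0

lemma sq_bd {g : ℤ → ℂ} {r : ℝ} (hr : 0 ≤ r) (hg : ∀ s : Finset ℤ, ∑ n ∈ s, ‖g n‖ ^ 2 ≤ r ^ 2)
    (n : ℤ) : ‖g n‖ ≤ r := by
  have := hg {n}
  rw [sum_singleton] at this
  exact (sq_le_sq₀ (norm_nonneg _) hr).1 this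

lemma wa_spec {x : ℕ → ℕ} (hx : ∀ j, x j < 2 * 4 ^ j) {j : ℕ} (hxj : x j < 4 ^ j) (f : ℤ → ℂ)
    (hf : ∀ n, ‖f n‖ ≤ j + 1) {n0 : ℤ} (hn0 : |n0| ≤ j) (h1 : 1 / ((j : ℝ) + 1) ≤ ‖f n0‖) :
    Bd (3 * 4 ^ j) (((j : ℝ) + 1) * PP j) (wa x j f) ∧
      1 / (((j : ℝ) + 1) * PP j) ≤ ‖wa x j f n0‖ := by
  have hL : (j : ℤ) < 4 ^ j := by exact_mod_cast (Nat.lt_pow_self (by norm_num) : j < 4 ^ j)
  have hxj' : (x j : ℤ) < 4 ^ j := by exact_mod_cast hxj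
  have hP := PP_pos j
  have hW : ((3 * 4 ^ j : ℕ) : ℤ) = 3 * 4 ^ j := by push_cast; rfl
  have w : ∀ n, -(4 : ℤ) ^ j - x j ≤ n ∧ n ≤ 3 * 4 ^ j → 1 / PP j ≤ bet x n ∧ bet x n ≤ PP j :=
    fun n hn =>
    bet_win hx (by rw [abs_le]; omega) (by unfold chi; rw [if_pos hxj, if_pos hn.1])
  have na : ∀ n, ‖f n / (bet x n : ℂ)‖ = ‖f n‖ / bet x n := fun n => by
    rw [norm_div, Complex.norm_real, Real.norm_of_nonneg (bet_pos _ _).le]
  refine ⟨⟨fun n => ?_, fun n hn => ?_⟩, ?_⟩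
  · unfold wa
    split_ifs with hn
    · rw [na]
      calc ‖f n‖ / bet x n ≤ (j + 1) / (1 / PP j) := by
            have := hf n
            have := (w n hn).1
            gcongr
        _ = _ := by field_simp
    · rw [norm_zero]; positivity
  · unfold wa
    rw [if_neg]
    rw [hW, lt_abs] at hn
    omega
  · have hn : -(4 : ℤ) ^ j - x j ≤ n0 ∧ n0 ≤ 3 * 4 ^ j := by rw [abs_le] at hn0; omega
    unfold wa
    rw [if_pos hn, na]
    calc 1 / (((j : ℝ) + 1) * PP j) = (1 / ((j : ℝ) + 1)) / PP j := by field_simp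
      _ ≤ _ := by
        have := (w n0 hn).2
        have := bet_pos x n0
        gcongr

lemma wb_spec {y : ℕ → ℕ} (hy : ∀ j, y j < 2 * 4 ^ j) {j : ℕ} (hyj : 4 ^ j ≤ y j) (h : ℤ → ℂ)
    (hh : ∀ n, ‖h n‖ ≤ j + 1) {m : ℤ} (hm : |m| ≤ j) (h2 : 1 / ((j : ℝ) + 1) ≤ ‖h m‖) :
    Bd (3 * 4 ^ j) (((j : ℝ) + 1) * PP j) (wb y j h) ∧
      1 / (((j : ℝ) + 1) * PP j) ≤ ‖wb y j h m‖ := by
  have hL : (j : ℤ) < 4 ^ j := by exact_mod_cast (Nat.lt_pow_self (by norm_num) : j < 4 ^ j)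
  have hyj' : (4 : ℤ) ^ j ≤ y j := by exact_mod_cast hyj
  have hyj'' : (y j : ℤ) < 2 * 4 ^ j := by exact_mod_cast hy j
  have hP := PP_pos j
  have hW : ((3 * 4 ^ j : ℕ) : ℤ) = 3 * 4 ^ j := by push_cast; rfl
  have w : ∀ n, -(3 * 4 ^ j) ≤ n ∧ n < 3 * (4 : ℤ) ^ j - y j →
      1 / PP j ≤ bet y n ∧ bet y n ≤ PP j := fun n hn =>
    bet_win hy (by rw [abs_le]; omega) (by unfold chi; rw [if_neg (by omega), if_neg (by omega)])
  have nb : ∀ n, ‖h n * (bet y n : ℂ)‖ = ‖h n‖ * bet y n := fun n => by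
    rw [norm_mul, Complex.norm_real, Real.norm_of_nonneg (bet_pos _ _).le]
  refine ⟨⟨fun n => ?_, fun n hn => ?_⟩, ?_⟩
  · unfold wb
    split_ifs with hn
    · rw [nb]
      have := hh n
      have := (w n hn).2
      have := bet_pos y n
      gcongr
    · rw [norm_zero]; positivity
  · unfold wb
    rw [if_neg]
    rw [hW, lt_abs] at hn
    omega
  · have hn : -(3 * 4 ^ j) ≤ m ∧ m < 3 * (4 : ℤ) ^ j - y j := by rw [abs_le] at hm; omega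
    unfold wb
    rw [if_pos hn, nb]
    calc 1 / (((j : ℝ) + 1) * PP j) = (1 / ((j : ℝ) + 1)) * (1 / PP j) := by field_simp
      _ ≤ _ := by
        have := (w m hn).1
        gcongr

lemma hasSum_corr {x y : ℕ → ℕ} (hy : ∀ j, y j < 2 * 4 ^ j) {j K : ℕ} (hxj : x j < 4 ^ j)
    (hyj : 4 ^ j ≤ y j) (hK : K ≤ j) (f h : ℤ → ℂ) {k : ℤ} (hk : -(K : ℤ) ≤ k) :
    HasSum (fun n => if -(4 : ℤ) ^ j - x j ≤ n - k ∧ n < 3 * (4 : ℤ) ^ j - y j then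
      h n * ((bet y n / bet x (n - k) : ℝ) : ℂ) * f (n - k) else 0)
      (corr (3 * 4 ^ j) (wa x j f) (wb y j h) k) := by
  have hL : (j : ℤ) < 4 ^ j := by exact_mod_cast (Nat.lt_pow_self (by norm_num) : j < 4 ^ j)
  have hK' : (K : ℤ) ≤ j := by exact_mod_cast hK
  have hxj' : (x j : ℤ) < 4 ^ j := by exact_mod_cast hxj
  have hyj' : (4 : ℤ) ^ j ≤ y j := by exact_mod_cast hyj
  have hyj'' : (y j : ℤ) < 2 * 4 ^ j := by exact_mod_cast hy j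
  have hW : ((3 * 4 ^ j : ℕ) : ℤ) = 3 * 4 ^ j := by push_cast; rfl
  have : corr (3 * 4 ^ j) (wa x j f) (wb y j h) k =
      ∑ n ∈ Icc (-((3 * 4 ^ j : ℕ) : ℤ)) (3 * 4 ^ j : ℕ),
        if -(4 : ℤ) ^ j - x j ≤ n - k ∧ n < 3 * (4 : ℤ) ^ j - y j then
          h n * ((bet y n / bet x (n - k) : ℝ) : ℂ) * f (n - k) else 0 := by
    unfold corr
    refine sum_congr rfl fun n hn => ?_
    rw [hW, mem_Icc] at hn
    unfold wa wb
    by_cases hc : -(4 : ℤ) ^ j - x j ≤ n - k ∧ n < 3 * (4 : ℤ) ^ j - y j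
    · rw [if_pos hc, if_pos ⟨hn.1, hc.2⟩, if_pos ⟨hc.1, by omega⟩]
      push_cast; ring
    · rw [if_neg hc]
      by_cases hc2 : n < 3 * (4 : ℤ) ^ j - y j
      · rw [if_neg (c := -(4 : ℤ) ^ j - x j ≤ n - k ∧ n - k ≤ 3 * 4 ^ j)
          (fun h => hc ⟨h.1, hc2⟩), mul_zero]
      · rw [if_neg (c := -(3 * 4 ^ j) ≤ n ∧ n < 3 * (4 : ℤ) ^ j - y j)
          (fun h => hc2 h.2), zero_mul]
  rw [this]
  refine hasSum_sum_of_ne_finset_zero fun n hn => ?_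
  rw [if_neg]
  rw [hW, mem_Icc] at hn
  omega

lemma tail {f h c : ℤ → ℂ} {r e : ℝ} (he : 0 ≤ e) (k : ℤ)
    (hf : ∀ s : Finset ℤ, ∑ n ∈ s, ‖f n‖ ^ 2 ≤ r ^ 2)
    (hh : ∀ s : Finset ℤ, ∑ n ∈ s, ‖h n‖ ^ 2 ≤ r ^ 2)
    (hc : ∀ n, ‖c n‖ ≤ ‖h n‖ * e * ‖f (n - k)‖) : Summable c ∧ ‖∑' n, c n‖ ≤ e * r ^ 2 := by
  have sf0 : Summable fun n => ‖f n‖ ^ 2 := summable_of_sum_le (fun _ => by positivity) hf
  have sh : Summable fun n => ‖h n‖ ^ 2 := summable_of_sum_le (fun _ => by positivity) hh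
  have sf : HasSum (fun n => ‖f (n - k)‖ ^ 2) (∑' n, ‖f n‖ ^ 2) :=
    (Equiv.subRight k).hasSum_iff.2 sf0.hasSum
  have tf : ∑' n, ‖f n‖ ^ 2 ≤ r ^ 2 := Real.tsum_le_of_sum_le (fun _ => by positivity) hf
  have th : ∑' n, ‖h n‖ ^ 2 ≤ r ^ 2 := Real.tsum_le_of_sum_le (fun _ => by positivity) hh
  have sg := (sh.hasSum.add sf).mul_left (e / 2)
  have bd : ∀ n, ‖c n‖ ≤ e / 2 * (‖h n‖ ^ 2 + ‖f (n - k)‖ ^ 2) := by
    intro n
    calc _ ≤ ‖h n‖ * e * ‖f (n - k)‖ := hc n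
      _ = e / 2 * (2 * ‖h n‖ * ‖f (n - k)‖) := by ring
      _ ≤ _ := by gcongr; exact two_mul_le_add_sq _ _
  refine ⟨Summable.of_norm_bounded sg.summable bd, (tsum_of_norm_bounded sg bd).trans ?_⟩
  calc _ ≤ e / 2 * (r ^ 2 + r ^ 2) := by gcongr
    _ = _ := by ring

theorem fibre {x y : ℕ → ℕ} (hx : ∀ j, x j < 2 * 4 ^ j) (hy : ∀ j, y j < 2 * 4 ^ j)
    {j K : ℕ} (hxy : ∀ i, j < i → y i = x i + K) (hxj : x j < 4 ^ j) (hyj : 4 ^ j ≤ y j)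
    (hK : K ≤ j) (f h : ℤ → ℂ) (hf : ∀ s : Finset ℤ, ∑ n ∈ s, ‖f n‖ ^ 2 ≤ (j + 1) ^ 2)
    (hh : ∀ s : Finset ℤ, ∑ n ∈ s, ‖h n‖ ^ 2 ≤ (j + 1) ^ 2) {n0 m : ℤ}
    (hn0 : |n0| ≤ j) (hm : |m| ≤ j) (hnm : n0 - m ≤ K)
    (h1 : 1 / ((j : ℝ) + 1) ≤ ‖f n0‖) (h2 : 1 / ((j : ℝ) + 1) ≤ ‖h m‖)
    (hz : ∀ k : ℤ, -(K : ℤ) ≤ k →
      ∑' n, h n * ((bet y n / bet x (n - k) : ℝ) : ℂ) * f (n - k) = 0) : False := by
  have hP := PP_pos j
  have hJ : (0 : ℝ) ≤ j + 1 := by positivity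
  obtain ⟨a1, a2⟩ := wa_spec hx hxj f (sq_bd hJ hf) hn0 h1
  obtain ⟨b1, b2⟩ := wb_spec hy hyj h (sq_bd hJ hh) hm h2
  obtain ⟨k, hk, hkap⟩ := kap_spec _ _ (by positivity) _ _ a1 b1 n0 m a2 b2
  have hk' : -(K : ℤ) ≤ k := by omega
  have s1 := hasSum_corr hy hxj hyj hK f h hk'
  have hd := del_pos j
  obtain ⟨s2, s3⟩ := tail (c := fun n =>
      if -(4 : ℤ) ^ j - x j ≤ n - k ∧ n < 3 * (4 : ℤ) ^ j - y j then 0 else
      h n * ((bet y n / bet x (n - k) : ℝ) : ℂ) * f (n - k)) (e := del j * PP j ^ 2)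
      (by positivity) k hf hh (fun n => by
    split_ifs with hc
    · rw [norm_zero]; positivity
    · have r := bet_ratio hx hy hxy hk' (chi_arrow' hxj hyj n (n - k) hc)
      rw [norm_mul, norm_mul, Complex.norm_real,
        Real.norm_of_nonneg (div_pos (bet_pos _ _) (bet_pos _ _)).le]
      gcongr)
  have s4 := s1.add s2.hasSum
  simp only [ite_add_ite, add_zero, zero_add, ite_self] at s4
  have s5 := s4.tsum_eq
  rw [hz k hk'] at s5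
  rw [eq_neg_of_add_eq_zero_left s5.symm, norm_neg] at hkap
  have := del_kap j
  linarith

end Vale.Agent.P131
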